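import Vale.Agent.P207.N3.Spec
import Vale.Agent.P207.N3.H862.JC

/-!
# P207, line N3, row P1d: charts of the leaves (abstract part)

`Slice`: the geodesics which come from a point `ξ` of the boundary (flow `psi ξ` of the space `V`),
and a disc `u ↦ A x (0, u)` transversal to them through the foot point of every frame `x`.
-/

set_option linter.unusedSectionVars false

open Set Filter Topology Metric
open scoped ContDiff

noncomputable section

namespace Vale.Agent.P207.N3.H459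

/-- the inverse function theorem with a parameter -/
def InvThm : Prop := ∀ (Z : Type) [TopologicalSpace Z] (E F : Type) [NormedAddCommGroup E]
  [NormedSpace ℝ E] [FiniteDimensional ℝ E] [NormedAddCommGroup F] [NormedSpace ℝ F]
  (f : Z → E → F) (S : Set (Z × E)) (z₀ : Z) (u₀ : E), JC f S → (z₀, u₀) ∈ S →
  Function.Bijective (fderiv ℝ (f z₀) u₀) →
  ∃ (T : Set (Z × F)) (g : Z → F → E), JC g T ∧ (z₀, f z₀ u₀) ∈ T ∧ g z₀ (f z₀ u₀) = u₀ ∧
    (∀ p ∈ T, (p.1, g p.1 p.2) ∈ S ∧ f p.1 (g p.1 p.2) = p.2) ∧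
    ∀ᶠ p in 𝓝 (z₀, u₀), (p.1, f p.1 p.2) ∈ T ∧ g p.1 (f p.1 p.2) = p.2

/-- The geodesics which come from the points `ξ` of the boundary. -/
structure Base (X B V : Type) [TopologicalSpace X] [TopologicalSpace B]
    [NormedAddCommGroup V] [NormedSpace ℝ V] where
  em : X → B
  ep : X → B
  /-- the foot point -/
  ft : X → V
  em_cont : Continuous em
  ep_cont : Continuous ep
  ft_cont : Continuous ft
  frame : ∀ ξ q, ∃ x, em x = ξ ∧ ft x = q
  ft_proper : ∀ K : Set V, IsCompact K → IsCompact (ft ⁻¹' K)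
  /-- the unit speed motion along the geodesics which come from `ξ` -/
  psi : B → ℝ → V → V
  psi_zero : ∀ ξ q, psi ξ 0 q = q
  psi_add : ∀ ξ s t q, psi ξ (s + t) q = psi ξ s (psi ξ t q)
  psi_ne : ∀ ξ s q, psi ξ s q = q → s = 0
  /-- the end point of the geodesic through `q` which comes from `ξ` -/
  line : B → V → B
  line_ft : ∀ x, line (em x) (ft x) = ep x
  line_iff : ∀ ξ q q', line ξ q = line ξ q' ↔ ∃ s, q' = psi ξ s q

/-- Slice data. -/
structure Slice (X B V : Type) [TopologicalSpace X] [TopologicalSpace B]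
    [NormedAddCommGroup V] [NormedSpace ℝ V] extends Base X B V where
  /-- the radius of the discs -/
  R : ℝ
  R_gt : 3 < R
  /-- `A x (s, u)` is the point at time `s` of the geodesic from `em x` through the point
  `A x (0, u)` of the disc -/
  A : X → ℝ × E2 → V
  A_jc : JC A (univ ×ˢ (univ ×ˢ ball 0 R))
  A_zero : ∀ x, A x 0 = ft x
  A_psi : ∀ x s, ∀ u ∈ ball (0 : E2) R, A x (s, u) = psi (em x) s (A x (0, u))
  A_der : ∀ x, ∀ u ∈ ball (0 : E2) R, Function.Bijective (fderiv ℝ (A x) (0, u))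
  A_inj : ∀ x s, ∀ u ∈ closedBall (0 : E2) 3, ∀ v ∈ closedBall (0 : E2) 3,
    A x (s, u) = A x (0, v) → u = v

namespace Slice

variable {X B V : Type} [TopologicalSpace X] [TopologicalSpace B] [CompactSpace B] [T2Space B]
  [NormedAddCommGroup V] [NormedSpace ℝ V] [FiniteDimensional ℝ V]
  (L : Slice X B V)

include L

theorem zero_mem : (0 : E2) ∈ ball (0 : E2) L.R :=
  mem_ball_self (by linarith [L.R_gt])

theorem mem_S (x : X) (s : ℝ) {u : E2} (hu : u ∈ ball (0 : E2) L.R) :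
    ((x, (s, u)) : X × (ℝ × E2)) ∈ (univ ×ˢ (univ ×ˢ ball 0 L.R) : Set (X × (ℝ × E2))) :=
  ⟨mem_univ _, mem_univ _, hu⟩

theorem mem_R {u : E2} (hu : u ∈ closedBall (0 : E2) 3) : u ∈ ball (0 : E2) L.R :=
  closedBall_subset_ball L.R_gt hu

/-- frames to pairs (point at infinity, foot point) -/
def q (x : X) : B × V := (L.em x, L.ft x)

theorem q_surj : Function.Surjective L.q := fun p => by
  obtain ⟨x, h1, h2⟩ := L.frame p.1 p.2
  exact ⟨x, Prod.ext h1 h2⟩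

theorem q_cont : Continuous L.q := L.em_cont.prodMk L.ft_cont

theorem q_proper : IsProperMap L.q := by
  rw [isProperMap_iff_isCompact_preimage]
  refine ⟨L.q_cont, fun K hK => ?_⟩
  refine (L.ft_proper (Prod.snd '' K) (hK.image continuous_snd)).of_isClosed_subset
    (hK.isClosed.preimage L.q_cont) fun x hx => ⟨L.q x, hx, rfl⟩

/-- a function on `B × V × Y` is continuous if it is continuous as a function of frames -/
theorem continuous_of_frames {Y W : Type} [TopologicalSpace Y] [TopologicalSpace W]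
    {F : B → V → Y → W} (h : Continuous fun p : X × Y => F (L.em p.1) (L.ft p.1) p.2) :
    Continuous fun p : (B × V) × Y => F p.1.1 p.1.2 p.2 := by
  have h1 : IsQuotientMap (Prod.map L.q (id : Y → Y)) := by
    have h2 : IsProperMap (Prod.map L.q (id : Y → Y)) :=
      L.q_proper.prodMap isProperMap_id
    refine h2.isClosedMap.isQuotientMap h2.continuous ?_
    exact L.q_surj.prodMap Function.surjective_id
  rw [h1.continuous_iff]
  exact h

theorem line_cont : Continuous fun p : B × V => L.line p.1 p.2 := by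
  have h := L.continuous_of_frames (Y := Unit) (F := fun ξ q _ => L.line ξ q) ?_
  · exact h.comp (continuous_id.prodMk continuous_const : Continuous fun p : B × V => (p, ()))
  · simp only [L.line_ft]
    exact L.ep_cont.comp continuous_fst

/-- moving a point of the tube -/
theorem psi_A (x : X) (t s : ℝ) {u : E2} (hu : u ∈ ball (0 : E2) L.R) :
    L.psi (L.em x) t (L.A x (s, u)) = L.A x (t + s, u) := by
  rw [L.A_psi x s u hu, L.A_psi x (t + s) u hu, L.psi_add]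

/-- local coordinates along the tube of `x₀`, near its foot point -/
theorem chart (hinv : InvThm) (x₀ : X) : ∃ (T : Set (X × V)) (g : X → V → ℝ × E2), JC g T ∧
    (x₀, L.ft x₀) ∈ T ∧ g x₀ (L.ft x₀) = 0 ∧
    ∀ p ∈ T, (g p.1 p.2).2 ∈ ball (0 : E2) L.R ∧ L.A p.1 (g p.1 p.2) = p.2 := by
  obtain ⟨T, g, h1, h2, h3, h4, -⟩ := hinv X (ℝ × E2) V L.A _ x₀ 0 L.A_jc
    (L.mem_S x₀ 0 L.zero_mem) (L.A_der x₀ 0 L.zero_mem)
  rw [L.A_zero] at h2 h3
  exact ⟨T, g, h1, h2, h3, fun p hp => ⟨(h4 p hp).1.2.2, (h4 p hp).2⟩⟩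

/-- the whole tube is a local diffeomorphism -/
theorem A_der' (hinv : InvThm) (x : X) (s : ℝ) {u : E2} (hu : u ∈ ball (0 : E2) L.R) :
    Function.Bijective (fderiv ℝ (L.A x) (s, u)) := by
  obtain ⟨y, hy, hq⟩ := L.frame (L.em x) (L.A x (s, u))
  obtain ⟨T, g, h1, h2, h3, h4⟩ := L.chart hinv y
  rw [hq] at h2 h3
  have hA : DifferentiableAt ℝ (L.A x) (s, u) := L.A_jc.differentiableAt (L.mem_S x s hu)
  have hA0 : DifferentiableAt ℝ (L.A x) (0, u) := L.A_jc.differentiableAt (L.mem_S x 0 hu)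
  have hg : DifferentiableAt ℝ (g y) (L.A x (s, u)) := h1.differentiableAt h2
  have hAy : DifferentiableAt ℝ (L.A y) ((-s, 0) + g y (L.A x (s, u))) := by
    rw [h3, add_zero]
    exact L.A_jc.differentiableAt (L.mem_S y _ L.zero_mem)
  -- the identity
  have key : (fun p : ℝ × E2 => L.A x ((-s, 0) + p)) =ᶠ[𝓝 (s, u)]
      fun p => L.A y ((-s, 0) + g y (L.A x p)) := by
    have e1 : ∀ᶠ p : ℝ × E2 in 𝓝 (s, u), p.2 ∈ ball (0 : E2) L.R :=
      continuous_snd.continuousAt.eventually (isOpen_ball.mem_nhds hu)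
    have e2 : ∀ᶠ p : ℝ × E2 in 𝓝 (s, u), (y, L.A x p) ∈ T :=
      hA.continuousAt.eventually ((isOpen_slice h1.isOpen y).mem_nhds h2)
    filter_upwards [e1, e2] with p hp1 hp2
    obtain ⟨hp3, hp4⟩ := h4 _ hp2
    simp only at hp3 hp4
    have e3 := L.psi_A y (-s) (g y (L.A x p)).1 hp3
    rw [Prod.mk.eta, hp4, hy] at e3
    have e4 := L.psi_A x (-s) p.1 hp1
    rw [Prod.mk.eta, e3] at e4
    have e5 : ((-s, 0) + p : ℝ × E2) = (-s + p.1, p.2) := by ext1 <;> simp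
    have e6 : ((-s, 0) + g y (L.A x p) : ℝ × E2) = (-s + (g y (L.A x p)).1, (g y (L.A x p)).2) := by
      ext1 <;> simp
    rw [e5, e6, e4]
  have hs : ((-s, 0) + (s, u) : ℝ × E2) = (0, u) := by ext1 <;> simp
  have d1 : HasFDerivAt (fun p : ℝ × E2 => L.A x ((-s, 0) + p)) (fderiv ℝ (L.A x) (0, u)) (s, u) := by
    have h0 : HasFDerivAt (fun p : ℝ × E2 => ((-s, 0) : ℝ × E2) + p)
        (ContinuousLinearMap.id ℝ (ℝ × E2)) (s, u) :=
      (hasFDerivAt_id (𝕜 := ℝ) (s, u)).const_add ((-s, 0) : ℝ × E2)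
    have h6 : HasFDerivAt (L.A x) (fderiv ℝ (L.A x) (0, u)) (((-s, 0) : ℝ × E2) + (s, u)) := by
      rw [hs]
      exact hA0.hasFDerivAt
    exact h6.comp (s, u) h0
  have d2 : HasFDerivAt (fun p : ℝ × E2 => L.A y ((-s, 0) + g y (L.A x p)))
      (((fderiv ℝ (L.A y) ((-s, 0) + g y (L.A x (s, u)))).comp
        (fderiv ℝ (g y) (L.A x (s, u)))).comp (fderiv ℝ (L.A x) (s, u))) (s, u) := by
    have h5 : HasFDerivAt (fun p : ℝ × E2 => ((-s, 0) : ℝ × E2) + g y (L.A x p))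
        ((fderiv ℝ (g y) (L.A x (s, u))).comp (fderiv ℝ (L.A x) (s, u))) (s, u) :=
      (hg.hasFDerivAt.comp (s, u) hA.hasFDerivAt).const_add _
    exact hAy.hasFDerivAt.comp (s, u) h5
  have d3 := (d2.congr_of_eventuallyEq key).unique d1
  have hb := L.A_der x u hu
  have hinj : Function.Injective (fderiv ℝ (L.A x) (s, u)) := by
    intro a b hab
    apply hb.1
    rw [← d3]
    simp only [ContinuousLinearMap.coe_comp, Function.comp_apply, hab]
  refine ⟨hinj, ?_⟩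
  have hfin : Module.finrank ℝ (ℝ × E2) = Module.finrank ℝ V :=
    (LinearEquiv.ofBijective (fderiv ℝ (L.A x) (0, u)).toLinearMap hb).finrank_eq
  exact (LinearMap.injective_iff_surjective_of_finrank_eq_finrank
    (f := (fderiv ℝ (L.A x) (s, u)).toLinearMap) hfin).1 hinj

/-- the flow, as a function of the frame -/
theorem psi_jc_frames (hinv : InvThm) : ∃ S : Set (X × (ℝ × V)),
    JC (fun x (p : ℝ × V) => L.psi (L.em x) p.1 p.2) S ∧ ∀ x t, (x, (t, L.ft x)) ∈ S := by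
  choose T g h1 h2 h3 h4 using L.chart hinv
  refine ⟨⋃ x₀, {p : X × (ℝ × V) | (p.1, p.2.2) ∈ T x₀}, JC.iUnion fun x₀ => ?_, fun x t =>
    mem_iUnion.2 ⟨x, h2 x⟩⟩
  set S : Set (X × (ℝ × V)) := {p | (p.1, p.2.2) ∈ T x₀} with hSdef
  have hS : IsOpen S := (h1 x₀).isOpen.preimage (by fun_prop)
  have hs : JC (fun (_ : X) (p : ℝ × V) => p.2) S := (JC.id hS).snd
  have hg : JC (fun x (p : ℝ × V) => g x₀ x p.2) S := (h1 x₀).comp' hs fun p hp => hp
  have ht : JC (fun (_ : X) (p : ℝ × V) => ((p.1, 0) : ℝ × E2)) S :=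
    (JC.id hS).fst.prodMk (JC.const hS 0)
  have hA := L.A_jc.comp' (ht.add hg) fun p hp =>
    ⟨mem_univ _, mem_univ _, by simpa using (h4 x₀ (p.1, p.2.2) hp).1⟩
  refine hA.congr fun p hp => ?_
  obtain ⟨h5, h6⟩ := h4 x₀ (p.1, p.2.2) hp
  simp only at h5 h6
  have e1 := L.psi_A p.1 p.2.1 (g x₀ p.1 p.2.2).1 h5
  rw [Prod.mk.eta, h6] at e1
  rw [e1]
  congr 1
  ext1 <;> simp

/-- **the flow of the geodesics coming from `ξ`: all derivatives are jointly continuous** -/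
theorem psi_jc (hinv : InvThm) : JC (fun ξ (p : ℝ × V) => L.psi ξ p.1 p.2) univ := by
  obtain ⟨S, hS, hmem⟩ := L.psi_jc_frames hinv
  refine ⟨isOpen_univ, fun ξ => ?_, fun k => ?_⟩
  · rintro ⟨t, q⟩ -
    obtain ⟨x, rfl, rfl⟩ := L.frame ξ q
    exact (hS.contDiffAt (hmem x t)).contDiffWithinAt
  · rw [continuousOn_univ]
    have h1 : Continuous fun p : (B × V) × ℝ =>
        iteratedFDeriv ℝ k (fun z : ℝ × V => L.psi p.1.1 z.1 z.2) (p.2, p.1.2) := by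
      refine L.continuous_of_frames
        (F := fun ξ q t => iteratedFDeriv ℝ k (fun z : ℝ × V => L.psi ξ z.1 z.2) (t, q)) ?_
      have h2 : Continuous fun p : X × ℝ => ((p.1, (p.2, L.ft p.1)) : X × (ℝ × V)) :=
        continuous_fst.prodMk (continuous_snd.prodMk (L.ft_cont.comp continuous_fst))
      rw [← continuousOn_univ]
      exact (hS.cont k).comp h2.continuousOn fun p _ => hmem p.1 p.2
    exact h1.comp (by fun_prop : Continuous fun p : B × (ℝ × V) => ((p.1, p.2.2), p.2.1))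

/-- the field of the initial directions of the geodesics coming from `ξ` -/
def vel (ξ : B) (p : V) : V := fderiv ℝ (fun z : ℝ × V => L.psi ξ z.1 z.2) (0, p) (1, 0)

theorem vel_jc (hinv : InvThm) : JC L.vel univ := by
  have h1 := (L.psi_jc hinv).fderiv
  have h2 : JC (fun (_ : B) (p : V) => ((0, p) : ℝ × V)) univ :=
    (JC.const isOpen_univ 0).prodMk (JC.id isOpen_univ)
  have h3 : JC (fun ξ (p : V) => fderiv ℝ (fun z : ℝ × V => L.psi ξ z.1 z.2) (0, p)) univ :=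
    h1.comp' h2 fun _ _ => mem_univ _
  exact h3.clm_apply (JC.const isOpen_univ (((1, 0) : ℝ × V)))

theorem hasDerivAt_psi (hinv : InvThm) (ξ : B) (s : ℝ) (p : V) :
    HasDerivAt (fun t => L.psi ξ t p) (L.vel ξ (L.psi ξ s p)) s := by
  have h1 : HasDerivAt (fun t => L.psi ξ t (L.psi ξ s p)) (L.vel ξ (L.psi ξ s p)) (s + -s) := by
    have h2 : DifferentiableAt ℝ (fun z : ℝ × V => L.psi ξ z.1 z.2) (0, L.psi ξ s p) :=
      (L.psi_jc hinv).differentiableAt (mem_univ (ξ, (0, L.psi ξ s p)))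
    have h3 : HasDerivAt (fun t : ℝ => ((t, L.psi ξ s p) : ℝ × V)) (1, 0) 0 :=
      (hasDerivAt_id 0).prodMk (hasDerivAt_const 0 _)
    rw [add_neg_cancel]
    exact h2.hasFDerivAt.comp_hasDerivAt (0 : ℝ) h3
  have h4 := h1.comp_add_const s (-s)
  refine h4.congr_of_eventuallyEq (Eventually.of_forall fun t => ?_)
  simp only
  rw [← L.psi_add]
  congr 1
  ring

/-! ### the charts -/

/-- the charts of the leaves -/
def e (x : X) (u : E2) : B := L.line (L.em x) (L.A x (0, u))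

theorem e_zero (x : X) : L.e x 0 = L.ep x := by
  have h : L.A x (0, 0) = L.ft x := L.A_zero x
  rw [e, h, L.line_ft]

theorem A_disc_cont : ContinuousOn (fun p : X × E2 => L.A p.1 (0, p.2)) (univ ×ˢ ball 0 L.R) := by
  refine L.A_jc.continuousOn.comp (f := fun p : X × E2 => ((p.1, (0, p.2)) : X × (ℝ × E2)))
    (by fun_prop) fun p hp => ⟨mem_univ _, mem_univ _, hp.2⟩

theorem e_cont_R : ContinuousOn (fun p : X × E2 => L.e p.1 p.2) (univ ×ˢ ball 0 L.R) :=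
  L.line_cont.comp_continuousOn ((L.em_cont.comp continuous_fst).continuousOn.prodMk
    L.A_disc_cont)

theorem e_cont : ContinuousOn (fun p : X × E2 => L.e p.1 p.2) (univ ×ˢ closedBall 0 3) :=
  L.e_cont_R.mono (prod_mono_right (closedBall_subset_ball L.R_gt))

theorem e_eq_iff {x y : X} (h : L.em x = L.em y) {u v : E2} (hv : v ∈ ball (0 : E2) L.R) :
    L.e x u = L.e y v ↔ ∃ s, L.A y (s, v) = L.A x (0, u) := by
  rw [e, e, h, eq_comm, L.line_iff]
  refine exists_congr fun s => ?_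
  rw [← L.A_psi y s v hv, eq_comm]

theorem e_inj (x : X) : InjOn (L.e x) (closedBall 0 3) := by
  intro u hu v hv huv
  obtain ⟨s, hs⟩ := (L.e_eq_iff (rfl : L.em x = L.em x) (L.mem_R hv)).1 huv
  exact (L.A_inj x s v hv u hu hs).symm

/-- the frame at a point of the disc has the same end points -/
theorem e_eq_ep {x y : X} (h : L.em y = L.em x) {u : E2} (hf : L.ft y = L.A x (0, u)) :
    L.ep y = L.e x u := by
  rw [e, ← h, ← hf, L.line_ft]

theorem exists_frame_disc (x : X) (u : E2) :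
    ∃ y, L.em y = L.em x ∧ L.ft y = L.A x (0, u) ∧ L.ep y = L.e x u := by
  obtain ⟨y, h1, h2⟩ := L.frame (L.em x) (L.A x (0, u))
  exact ⟨y, h1, h2, L.e_eq_ep h1 h2⟩

theorem tau_eq {x y : X} {u v : E2} (hv : v ∈ closedBall (0 : E2) 3) (h : L.e x u = L.e y v) :
    tau L.e x y u = v := by
  rw [tau, h]
  exact (L.e_inj y).leftInvOn_invFunOn hv

/-! ### crossings -/

/-- local solution of `A y (s, v) = A x (0, u)`; the frames `x`, `y` need not be on one leaf -/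
theorem cross (hinv : InvThm) {x₀ y₀ : X} {u₀ : E2} (hu : u₀ ∈ ball (0 : E2) L.R) {s₀ : ℝ}
    {v₀ : E2} (hv : v₀ ∈ ball (0 : E2) L.R) (h : L.A y₀ (s₀, v₀) = L.A x₀ (0, u₀)) :
    ∃ (T : Set ((X × X) × E2)) (G : X × X → E2 → ℝ × E2), JC G T ∧ ((x₀, y₀), u₀) ∈ T ∧
      G (x₀, y₀) u₀ = (s₀, v₀) ∧ ∀ p ∈ T, p.2 ∈ ball (0 : E2) L.R ∧
        (G p.1 p.2).2 ∈ ball (0 : E2) L.R ∧ L.A p.1.2 (G p.1 p.2) = L.A p.1.1 (0, p.2) := by
  obtain ⟨T, g, h1, h2, h3, h4, -⟩ := hinv X (ℝ × E2) V L.A _ y₀ (s₀, v₀) L.A_jc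
    (L.mem_S y₀ s₀ hv) (L.A_der' hinv y₀ s₀ hv)
  -- the points of the disc, as a function of the two frames
  set S : Set ((X × X) × E2) := {p | p.2 ∈ ball (0 : E2) L.R} with hSd
  have hS : IsOpen S := isOpen_ball.preimage continuous_snd
  have hP : JC (fun (p : X × X) (u : E2) => L.A p.1 (0, u)) S := by
    have h5 : JC (fun (_ : X × X) (u : E2) => ((0, u) : ℝ × E2)) S :=
      (JC.const hS 0).prodMk (JC.id hS)
    exact (L.A_jc.pullback (continuous_fst : Continuous (Prod.fst : X × X → X))).comp' h5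
      fun p hp => ⟨mem_univ _, mem_univ _, hp⟩
  have hg := h1.pullback (continuous_snd : Continuous (Prod.snd : X × X → X))
  have hG := hg.comp hP
  refine ⟨_, _, hG, ⟨hu, ?_⟩, ?_, ?_⟩
  · change (y₀, L.A x₀ (0, u₀)) ∈ T
    rw [← h]
    exact h2
  · change g y₀ (L.A x₀ (0, u₀)) = (s₀, v₀)
    rw [← h, h3]
  · rintro ⟨⟨x, y⟩, u⟩ ⟨hp1, hp2⟩
    obtain ⟨h5, h6⟩ := h4 _ hp2
    exact ⟨hp1, h5.2.2, h6⟩

/-- **the transition maps and the crossing times extend locally to smooth families over all pairs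
of frames** (form for points `u₀` of the larger disc) -/
theorem tau_local' (hinv : InvThm) {x₀ y₀ : X} {u₀ v₀ : E2} (hem : L.em x₀ = L.em y₀)
    (hu : u₀ ∈ ball (0 : E2) L.R) (hv3 : v₀ ∈ ball (0 : E2) 3) (hv : L.e x₀ u₀ = L.e y₀ v₀) :
    ∃ (T : Set ((X × X) × E2)) (G : X × X → E2 → ℝ × E2), JC G T ∧ ((x₀, y₀), u₀) ∈ T ∧
      (G (x₀, y₀) u₀).2 = v₀ ∧
      ∀ p ∈ T, p.2 ∈ ball (0 : E2) L.R ∧ (G p.1 p.2).2 ∈ ball (0 : E2) 3 ∧
        L.A p.1.2 (G p.1 p.2) = L.A p.1.1 (0, p.2) ∧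
        (L.em p.1.1 = L.em p.1.2 → L.e p.1.1 p.2 = L.e p.1.2 (G p.1 p.2).2 ∧
          tau L.e p.1.1 p.1.2 p.2 = (G p.1 p.2).2) := by
  obtain ⟨s₀, hs⟩ := (L.e_eq_iff hem (L.mem_R (ball_subset_closedBall hv3))).1 hv
  obtain ⟨T, G, h1, h2, h3, h4⟩ := L.cross hinv hu (L.mem_R (ball_subset_closedBall hv3)) hs
  have hO : IsOpen (T ∩ (fun p : (X × X) × E2 => G p.1 p.2) ⁻¹' {z | z.2 ∈ ball (0 : E2) 3}) :=
    h1.continuousOn.isOpen_inter_preimage h1.isOpen (isOpen_ball.preimage continuous_snd)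
  refine ⟨_, G, h1.mono hO fun p hp => hp.1, ⟨h2, ?_⟩, by rw [h3], ?_⟩
  · change (G (x₀, y₀) u₀).2 ∈ ball (0 : E2) 3
    rw [h3]
    exact hv3
  · rintro p ⟨hp1, hp3⟩
    obtain ⟨h6, -, h7⟩ := h4 p hp1
    refine ⟨h6, hp3, h7, fun hem' => ?_⟩
    have h8 : L.e p.1.1 p.2 = L.e p.1.2 (G p.1 p.2).2 :=
      (L.e_eq_iff hem' (L.mem_R (ball_subset_closedBall hp3))).2 ⟨(G p.1 p.2).1, by
        rw [Prod.mk.eta]; exact h7⟩
    exact ⟨h8, L.tau_eq (ball_subset_closedBall hp3) h8⟩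

/-- **the transition maps and the crossing times extend locally to smooth families over all pairs
of frames** -/
theorem tau_local (hinv : InvThm) {x₀ y₀ : X} {u₀ : E2} (hem : L.em x₀ = L.em y₀)
    (hu : u₀ ∈ dom L.e x₀ y₀) :
    ∃ (T : Set ((X × X) × E2)) (G : X × X → E2 → ℝ × E2), JC G T ∧ ((x₀, y₀), u₀) ∈ T ∧
      ∀ p ∈ T, p.2 ∈ ball (0 : E2) 3 ∧ (G p.1 p.2).2 ∈ ball (0 : E2) 3 ∧
        L.A p.1.2 (G p.1 p.2) = L.A p.1.1 (0, p.2) ∧
        (L.em p.1.1 = L.em p.1.2 → p.2 ∈ dom L.e p.1.1 p.1.2 ∧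
          tau L.e p.1.1 p.1.2 p.2 = (G p.1 p.2).2) := by
  obtain ⟨hu3, v₀, hv3, hv⟩ := hu
  obtain ⟨T, G, h1, h2, -, h4⟩ := L.tau_local' hinv hem
    (L.mem_R (ball_subset_closedBall hu3)) hv3 hv.symm
  refine ⟨T ∩ {p | p.2 ∈ ball (0 : E2) 3}, G,
    h1.mono (h1.isOpen.inter (isOpen_ball.preimage continuous_snd)) fun p hp => hp.1,
    ⟨h2, hu3⟩, ?_⟩
  rintro p ⟨hp1, hp2⟩
  obtain ⟨-, h6, h7, h8⟩ := h4 p hp1
  exact ⟨hp2, h6, h7, fun hem' => ⟨⟨hp2, _, h6, (h8 hem').1.symm⟩, (h8 hem').2⟩⟩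

theorem tau_smooth (hinv : InvThm) (x y : X) (hem : L.em x = L.em y) :
    ContDiffOn ℝ ∞ (tau L.e x y) (dom L.e x y) := by
  intro u hu
  obtain ⟨T, G, h1, h2, h3⟩ := L.tau_local hinv hem hu
  have h4 : ContDiffAt ℝ ∞ (fun u => (G (x, y) u).2) u := (h1.snd).contDiffAt h2
  refine (h4.congr_of_eventuallyEq ?_).contDiffWithinAt
  filter_upwards [(isOpen_slice h1.isOpen (x, y)).mem_nhds h2] with u' hu'
  exact ((h3 _ hu').2.2.2 hem).2

theorem tau_cont (hinv : InvThm) (k : ℕ) : ContinuousOn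
    (fun p : (X × X) × E2 => iteratedFDeriv ℝ k (tau L.e p.1.1 p.1.2) p.2)
    {p | L.em p.1.1 = L.em p.1.2 ∧ p.2 ∈ dom L.e p.1.1 p.1.2} := by
  rintro ⟨⟨x, y⟩, u⟩ ⟨hem, hu⟩
  obtain ⟨T, G, h1, h2, h3⟩ := L.tau_local hinv hem hu
  have h4 : ContinuousAt (fun p : (X × X) × E2 => iteratedFDeriv ℝ k (fun u => (G p.1 u).2) p.2)
      ((x, y), u) := ((h1.snd).cont k).continuousAt (h1.isOpen.mem_nhds h2)
  refine h4.continuousWithinAt.congr_of_eventuallyEq_of_mem ?_ ⟨hem, hu⟩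
  filter_upwards [mem_nhdsWithin_of_mem_nhds (h1.isOpen.mem_nhds h2), self_mem_nhdsWithin]
    with p hp1 hp2
  refine (Filter.EventuallyEq.iteratedFDeriv ℝ ?_ k).self_of_nhds
  filter_upwards [(isOpen_slice h1.isOpen p.1).mem_nhds hp1] with u' hu'
  exact ((h3 _ hu').2.2.2 hp2.1).2

theorem isOpen_dom (hinv : InvThm) (x y : X) (hem : L.em x = L.em y) : IsOpen (dom L.e x y) := by
  rw [isOpen_iff_mem_nhds]
  intro u hu
  obtain ⟨T, G, h1, h2, h3⟩ := L.tau_local hinv hem hu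
  filter_upwards [(isOpen_slice h1.isOpen (x, y)).mem_nhds h2] with u' hu'
  exact ((h3 _ hu').2.2.2 hem).1

/-- nearby discs see nearby frames of the same leaf -/
theorem e_open (hinv : InvThm)
    (hop : ∀ y : X, ∀ N ∈ 𝓝 (L.ft y), ∀ᶠ p : B × B in 𝓝 (L.em y, L.ep y),
      ∃ y', L.em y' = p.1 ∧ L.ep y' = p.2 ∧ L.ft y' ∈ N) :
    IsOpen {p : X × B | p.2 ∈ L.e p.1 '' ball 0 3} := by
  rw [isOpen_iff_mem_nhds]
  rintro ⟨x₀, b₀⟩ ⟨u₀, hu₀, hb⟩
  simp only at hb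
  subst hb
  obtain ⟨y, hy1, hy2, hy3⟩ := L.exists_frame_disc x₀ u₀
  have hR := L.mem_R (ball_subset_closedBall hu₀)
  obtain ⟨T, g, h1, h2, h3, h4, -⟩ := hinv X (ℝ × E2) V L.A _ x₀ (0, u₀) L.A_jc
    (L.mem_S x₀ 0 hR) (L.A_der x₀ u₀ hR)
  rw [← hy2] at h2 h3
  set T' : Set (X × V) := T ∩ (fun p : X × V => g p.1 p.2) ⁻¹' {z | z.2 ∈ ball (0 : E2) 3} with hT'
  have hO : IsOpen T' :=
    h1.continuousOn.isOpen_inter_preimage h1.isOpen (isOpen_ball.preimage continuous_snd)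
  have hm : (x₀, L.ft y) ∈ T' := ⟨h2, by
    change (g x₀ (L.ft y)).2 ∈ ball (0 : E2) 3
    rw [h3]
    exact hu₀⟩
  obtain ⟨N₁, hN₁, N₂, hN₂, hN⟩ := mem_nhds_prod_iff.1 (hO.mem_nhds hm)
  have h5 := hop y N₂ hN₂
  rw [hy1, hy3] at h5
  have h6 : Tendsto (fun p : X × B => (L.em p.1, p.2)) (𝓝 (x₀, L.e x₀ u₀))
      (𝓝 (L.em x₀, L.e x₀ u₀)) :=
    ((L.em_cont.comp continuous_fst).prodMk continuous_snd).tendsto _
  have h7 : ∀ᶠ p : X × B in 𝓝 (x₀, L.e x₀ u₀), p.1 ∈ N₁ := continuous_fst.continuousAt hN₁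
  filter_upwards [h6.eventually h5, h7] with p hp1 hp2
  obtain ⟨y', hy'1, hy'2, hy'3⟩ := hp1
  obtain ⟨h8, h9⟩ := hN (mk_mem_prod hp2 hy'3)
  obtain ⟨-, h10⟩ := h4 _ h8
  simp only at h10 hy'1 hy'2
  change (g p.1 (L.ft y')).2 ∈ ball (0 : E2) 3 at h9
  refine ⟨(g p.1 (L.ft y')).2, h9, ?_⟩
  have h11 : L.psi (L.em p.1) (g p.1 (L.ft y')).1 (L.A p.1 (0, (g p.1 (L.ft y')).2)) = L.ft y' := by
    rw [← L.A_psi _ _ _ (L.mem_R (ball_subset_closedBall h9)), Prod.mk.eta, h10]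
  have h12 : L.e p.1 (g p.1 (L.ft y')).2 = L.line (L.em p.1) (L.ft y') :=
    (L.line_iff _ _ _).2 ⟨_, h11.symm⟩
  rw [h12, ← hy'1, L.line_ft, hy'2]

end Slice

/-- the Hopf coordinates are open, in the form used by `Slice.e_open` -/
theorem hop_of {X B V : Type} [TopologicalSpace X] [TopologicalSpace B] [CompactSpace B]
    [T2Space B] [TopologicalSpace V] (em ep : X → B) (ft : X → V) (lv : X → ℝ)
    (em_cont : Continuous em) (ep_cont : Continuous ep) (ft_cont : Continuous ft)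
    (lv_cont : Continuous lv) (em_ne_ep : ∀ x, em x ≠ ep x)
    (exists_frame : ∀ ξ η, ξ ≠ η → ∀ t, ∃ x, em x = ξ ∧ ep x = η ∧ lv x = t)
    (ft_unique : ∀ x y, em x = em y → ep x = ep y → lv x = lv y → ft x = ft y)
    (hopf_proper : ∀ K : Set (B × B), IsCompact K → (∀ p ∈ K, p.1 ≠ p.2) → ∀ c : ℝ,
      IsCompact {x | (em x, ep x) ∈ K ∧ |lv x| ≤ c}) :
    ∀ y : X, ∀ N ∈ 𝓝 (ft y), ∀ᶠ p : B × B in 𝓝 (em y, ep y),
      ∃ y', em y' = p.1 ∧ ep y' = p.2 ∧ ft y' ∈ N := by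
  intro y N hN
  obtain ⟨O, hON, hO, hyO⟩ := mem_nhds_iff.1 hN
  have hne : {p : B × B | p.1 ≠ p.2} ∈ 𝓝 (em y, ep y) :=
    (isOpen_ne_fun continuous_fst continuous_snd).mem_nhds (em_ne_ep y)
  obtain ⟨K, hK, hK1, hKc⟩ := local_compact_nhds hne
  have hC := hopf_proper K hKc (fun p hp => hK1 hp) |lv y|
  have hC' : IsCompact {x | ((em x, ep x) ∈ K ∧ |lv x| ≤ |lv y|) ∧ (lv x = lv y ∧ ft x ∉ O)} := by
    refine hC.of_isClosed_subset ?_ fun x hx => hx.1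
    have h1 : IsClosed {x | (em x, ep x) ∈ K ∧ |lv x| ≤ |lv y|} :=
      ((hKc.isClosed.preimage (em_cont.prodMk ep_cont))).inter
        (isClosed_le (lv_cont.abs) continuous_const)
    have h2 : IsClosed {x | lv x = lv y ∧ ft x ∉ O} :=
      (isClosed_eq lv_cont continuous_const).inter (hO.isClosed_compl.preimage ft_cont)
    exact h1.inter h2
  have hI := (hC'.image (em_cont.prodMk ep_cont)).isClosed
  have hyI : (em y, ep y) ∉ (fun x => (em x, ep x)) ''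
      {x | ((em x, ep x) ∈ K ∧ |lv x| ≤ |lv y|) ∧ (lv x = lv y ∧ ft x ∉ O)} := by
    rintro ⟨x, ⟨-, hx1, hx2⟩, hx3⟩
    have h3 := Prod.ext_iff.1 hx3
    exact hx2 (ft_unique x y h3.1 h3.2 hx1 ▸ hyO)
  filter_upwards [hK, hI.isOpen_compl.mem_nhds hyI] with p hp1 hp2
  obtain ⟨x, hx1, hx2, hx3⟩ := exists_frame p.1 p.2 (hK1 hp1) (lv y)
  have hxp : (em x, ep x) = p := Prod.ext hx1 hx2
  refine ⟨x, hx1, hx2, hON ?_⟩
  by_contra hx4
  exact hp2 ⟨x, ⟨⟨hxp ▸ hp1, by rw [hx3]⟩, hx3, hx4⟩, hxp⟩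

namespace Slice

variable {X B V : Type} [TopologicalSpace X] [TopologicalSpace B] [CompactSpace B] [T2Space B]
  [NormedAddCommGroup V] [NormedSpace ℝ V] [FiniteDimensional ℝ V] (L : Slice X B V)

theorem e_ne (h : ∀ ξ q, L.line ξ q ≠ ξ) (x : X) (u : E2) : L.e x u ≠ L.em x := h _ _

theorem e_smul {Γ : Type} [SMul Γ X] [SMul Γ B] (act : Γ → V → V) (g : Γ) (x : X)
    (hem : L.em (g • x) = g • L.em x) (hA : ∀ u ∈ closedBall (0 : E2) 3,
      L.A (g • x) (0, u) = act g (L.A x (0, u)))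
    (hl : ∀ ξ p, L.line (g • ξ) (act g p) = g • L.line ξ p) :
    ∀ u ∈ closedBall (0 : E2) 3, L.e (g • x) u = g • L.e x u := fun u hu => by
  rw [e, e, hem, hA u hu, hl]

theorem e_rot (rot : O2 → X → X) (a : O2) (x : X) (hem : L.em (rot a x) = L.em x)
    (hA : ∀ u ∈ closedBall (0 : E2) 3, L.A (rot a x) (0, u) = L.A x (0, a u)) :
    ∀ u ∈ closedBall (0 : E2) 3, L.e (rot a x) u = L.e x (a u) := fun u hu => by
  rw [e, e, hem, hA u hu]

end Slice

/-- two discs of one leaf which meet, at bounded difference of levels, are close -/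
theorem Slice.near {X B V : Type} [MetricSpace X] [TopologicalSpace B] [CompactSpace B] [T2Space B]
    [NormedAddCommGroup V] [NormedSpace ℝ V] [FiniteDimensional ℝ V] (L : Slice X B V)
    (lv : X → ℝ) (ds : V → V → ℝ) (lvl : B → V → ℝ) (c₀ : ℝ)
    (ds_comm : ∀ p q, ds p q = ds q p) (ds_tri : ∀ p q r, ds p r ≤ ds p q + ds q r)
    (disc : ∀ x, ∀ u ∈ closedBall (0 : E2) 3, ds (L.ft x) (L.A x (0, u)) ≤ c₀)
    (lvl_ft : ∀ x, lvl (L.em x) (L.ft x) = lv x)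
    (lvl_ds : ∀ ξ p q, |lvl ξ p - lvl ξ q| ≤ ds p q)
    (lvl_psi : ∀ ξ s p, lvl ξ (L.psi ξ s p) = lvl ξ p + s)
    (ds_psi : ∀ ξ s p, ds p (L.psi ξ s p) ≤ |s|)
    (bdd : ∀ c : ℝ, ∃ C, ∀ x y : X, ds (L.ft x) (L.ft y) ≤ c → dist x y ≤ C) (c : ℝ) :
    ∃ C, ∀ x y, L.em x = L.em y → |lv x - lv y| ≤ c →
      (L.e x '' closedBall 0 3 ∩ L.e y '' closedBall 0 3).Nonempty → dist x y ≤ C := by
  obtain ⟨C, hC⟩ := bdd (c₀ + (c + 2 * c₀) + c₀)
  refine ⟨C, fun x y hem hlv hne => hC x y ?_⟩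
  obtain ⟨b, ⟨u, hu, hu'⟩, v, hv, hv'⟩ := hne
  obtain ⟨s, hs⟩ := (L.e_eq_iff hem (L.mem_R hv)).1 (hu'.trans hv'.symm)
  rw [L.A_psi y s v (L.mem_R hv)] at hs
  have h1 := disc x u hu
  have h2 := disc y v hv
  have h3 := lvl_psi (L.em y) s (L.A y (0, v))
  rw [hs] at h3
  have h4 := lvl_ds (L.em y) (L.ft y) (L.A y (0, v))
  have h5 := lvl_ds (L.em y) (L.ft x) (L.A x (0, u))
  rw [lvl_ft] at h4
  rw [← hem, lvl_ft] at h5
  rw [← hem] at h3 h4
  have h6 : |s| ≤ c + 2 * c₀ := by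
    rw [abs_le] at h4 h5 hlv ⊢
    constructor <;> linarith
  have h7 := ds_psi (L.em y) s (L.A y (0, v))
  rw [hs] at h7
  have h8 := ds_tri (L.ft x) (L.A x (0, u)) (L.ft y)
  have h9 := ds_tri (L.A x (0, u)) (L.A y (0, v)) (L.ft y)
  rw [ds_comm (L.A y (0, v)) (L.ft y), ds_comm (L.A x (0, u)) (L.A y (0, v))] at h9
  linarith

end Vale.Agent.P207.N3.H459
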