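import Vale.Agent.P207.N3.H459.Slice

/-!
# P207, line N3: the inverse function theorem for families with jointly continuous derivatives
-/

set_option linter.unusedSectionVars false

open Set Filter Topology Metric
open scoped ContDiff NNReal

noncomputable section

namespace Vale.Agent.P207.N3

universe v

variable {Z : Type v} [TopologicalSpace Z] {E F G : Type}
  [NormedAddCommGroup E] [NormedSpace ℝ E] [NormedAddCommGroup F] [NormedSpace ℝ F]
  [NormedAddCommGroup G] [NormedSpace ℝ G]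

theorem JCn.inverse' [CompleteSpace E] {n : ℕ} {S : Set (Z × G)} {A : Z → G → E →L[ℝ] F}
    (hA : JCn n A S) (h : ∀ p ∈ S, (A p.1 p.2).IsInvertible) :
    JCn n (fun z u => (A z u).inverse) S := by
  have hU : IsOpen {A : E →L[ℝ] F | A.IsInvertible} := by
    have := ContinuousLinearEquiv.isOpen (𝕜 := ℝ) (E := E) (F := F)
    exact this
  have h1 : JC (fun (_ : Z) (A : E →L[ℝ] F) => A.inverse)
      ((univ : Set Z) ×ˢ {A : E →L[ℝ] F | A.IsInvertible}) :=
    JC.of_contDiffOn hU (fun A hA' => (hA'.contDiffAt_map_inverse).contDiffWithinAt)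
      (isOpen_univ.prod hU) fun _ hp => hp.2
  exact ((h1.jcn n).comp hA).mono hA.isOpen fun p hp => ⟨hp, mem_univ _, h p hp⟩

theorem JC.inverse' [CompleteSpace E] {S : Set (Z × G)} {A : Z → G → E →L[ℝ] F}
    (hA : JC A S) (h : ∀ p ∈ S, (A p.1 p.2).IsInvertible) :
    JC (fun z u => (A z u).inverse) S :=
  JC.of_jcn fun n => (hA.jcn n).inverse' h

/-- regularity of an inverse: from continuity to all orders -/
theorem JC.of_inverse [CompleteSpace E] {f : Z → E → F} {S : Set (Z × E)} {g : Z → F → E}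
    {T : Set (Z × F)} (hf : JC f S) (hT : IsOpen T)
    (hg : ContinuousOn (fun p : Z × F => g p.1 p.2) T)
    (hgS : ∀ p ∈ T, (p.1, g p.1 p.2) ∈ S) (hfg : ∀ p ∈ T, f p.1 (g p.1 p.2) = p.2)
    (hi : ∀ p ∈ T, (_root_.fderiv ℝ (f p.1) (g p.1 p.2)).IsInvertible) : JC g T := by
  have hd : ∀ p ∈ T, HasFDerivAt (g p.1) ((_root_.fderiv ℝ (f p.1) (g p.1 p.2)).inverse) p.2 := by
    intro p hp
    obtain ⟨e, he⟩ := hi p hp
    have h1 : HasFDerivAt (f p.1) (e : E →L[ℝ] F) (g p.1 p.2) := by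
      rw [he]
      exact hf.hasFDerivAt (hgS p hp)
    have h2 : ContinuousAt (g p.1) p.2 := by
      have h3 : ContinuousAt (fun p : Z × F => g p.1 p.2) p := hg.continuousAt (hT.mem_nhds hp)
      exact h3.comp (f := fun v : F => ((p.1, v) : Z × F)) (by fun_prop)
    have h4 : ∀ᶠ y in 𝓝 p.2, f p.1 (g p.1 y) = y := by
      filter_upwards [(isOpen_slice hT p.1).mem_nhds hp] with y hy using hfg (p.1, y) hy
    have h5 := HasFDerivAt.of_local_left_inverse h2 h1 h4
    rw [← he, ContinuousLinearMap.inverse_equiv]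
    exact h5
  refine JC.of_jcn fun n => ?_
  induction n with
  | zero => exact JCn_zero.2 ⟨hT, hg⟩
  | succ n ih =>
    refine JCn.of_hasFDerivAt (f1 := fun z v => (_root_.fderiv ℝ (f z) (g z v)).inverse) hg hd ?_
    have h1 : JCn n (fun z v => _root_.fderiv ℝ (f z) (g z v)) T :=
      ((hf.fderiv.jcn n).comp ih).mono hT fun p hp => ⟨hp, hgS p hp⟩
    exact h1.inverse' hi

/-- **inverse function theorem with a parameter** -/
theorem JC.exists_inverse [CompleteSpace E] {f : Z → E → F} {S : Set (Z × E)} (hf : JC f S)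
    {z₀ : Z} {u₀ : E} (h0 : (z₀, u₀) ∈ S) (hinv : (_root_.fderiv ℝ (f z₀) u₀).IsInvertible) :
    ∃ (T : Set (Z × F)) (g : Z → F → E), JC g T ∧ (z₀, f z₀ u₀) ∈ T ∧ g z₀ (f z₀ u₀) = u₀ ∧
      (∀ p ∈ T, (p.1, g p.1 p.2) ∈ S ∧ f p.1 (g p.1 p.2) = p.2 ∧
        (_root_.fderiv ℝ (f p.1) (g p.1 p.2)).IsInvertible) ∧
      ∀ᶠ p in 𝓝 (z₀, u₀), (p.1, f p.1 p.2) ∈ T ∧ g p.1 (f p.1 p.2) = p.2 := by
  obtain ⟨e, he⟩ := hinv
  set M : ℝ := ‖(e.symm : F →L[ℝ] E)‖ + 1 with hM
  have hM0 : 0 < M := by positivity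
  have hMe : ∀ w : F, ‖e.symm w‖ ≤ M * ‖w‖ := fun w =>
    ((e.symm : F →L[ℝ] E).le_opNorm w).trans
      (mul_le_mul_of_nonneg_right (by rw [hM]; linarith) (norm_nonneg _))
  -- the right inverse with constant `M`
  set ρ : (e : E →L[ℝ] F).NonlinearRightInverse :=
    { toFun := e.symm
      nnnorm := ⟨M, hM0.le⟩
      bound' := hMe
      right_inv' := e.apply_symm_apply } with hρ
  set c : ℝ := M⁻¹ / 2 with hc
  have hc0 : 0 < c := by positivity
  -- the neighbourhood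
  have hU : IsOpen {A : E →L[ℝ] F | A.IsInvertible} := by
    have := ContinuousLinearEquiv.isOpen (𝕜 := ℝ) (E := E) (F := F)
    exact this
  have hcont : ContinuousAt (fun p : Z × E => _root_.fderiv ℝ (f p.1) p.2) (z₀, u₀) :=
    hf.fderiv.continuousOn.continuousAt (hf.isOpen.mem_nhds h0)
  have hev : ∀ᶠ p : Z × E in 𝓝 (z₀, u₀), p ∈ S ∧ ‖_root_.fderiv ℝ (f p.1) p.2 - e‖ < c ∧
      (_root_.fderiv ℝ (f p.1) p.2).IsInvertible := by
    have h0' : ∀ᶠ p : Z × E in 𝓝 (z₀, u₀), p ∈ S := hf.isOpen.mem_nhds h0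
    refine h0'.and (Filter.Eventually.and ?_ ?_)
    · have h1 : ContinuousAt (fun p : Z × E => ‖_root_.fderiv ℝ (f p.1) p.2 - (e : E →L[ℝ] F)‖)
          (z₀, u₀) := (hcont.sub continuousAt_const).norm
      have h2 : ‖_root_.fderiv ℝ (f z₀) u₀ - (e : E →L[ℝ] F)‖ < c := by
        rw [← he, sub_self, norm_zero]
        exact hc0
      exact h1.eventually (gt_mem_nhds h2)
    · exact hcont.eventually (hU.mem_nhds ⟨e, he⟩)
  obtain ⟨N', hN', W, hW, hNW⟩ := mem_nhds_prod_iff.1 hev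
  obtain ⟨r', hr', hrW⟩ := Metric.mem_nhds_iff.1 hW
  obtain ⟨N, hNN', hNo, hzN⟩ := mem_nhds_iff.1 hN'
  set r : ℝ := r' / 2 with hr
  have hr0 : 0 < r := by positivity
  have hin : ∀ z ∈ N, ∀ u ∈ closedBall u₀ r, (z, u) ∈ S ∧ ‖_root_.fderiv ℝ (f z) u - e‖ < c ∧
      (_root_.fderiv ℝ (f z) u).IsInvertible := fun z hz u hu =>
    hNW (mk_mem_prod (hNN' hz) (hrW (closedBall_subset_ball (by linarith) hu)))
  have happ : ∀ z ∈ N, ApproximatesLinearOn (f z) (e : E →L[ℝ] F) (closedBall u₀ r)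
      ⟨c, hc0.le⟩ := by
    intro z hz x hx y hy
    exact (convex_closedBall u₀ r).norm_image_sub_le_of_norm_hasFDerivWithin_le'
      (fun w hw => (hf.hasFDerivAt (p := (z, w)) (hin z hz w hw).1).hasFDerivWithinAt)
      (fun w hw => (hin z hz w hw).2.1.le) hy hx
  have hanti : ∀ z ∈ N, ∀ x ∈ closedBall u₀ r, ∀ y ∈ closedBall u₀ r,
      ‖x - y‖ ≤ 2 * M * ‖f z x - f z y‖ := by
    intro z hz x hx y hy
    have h1 := happ z hz x hx y hy
    have h2 : x - y = e.symm ((e : E →L[ℝ] F) (x - y)) := by simp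
    have h3 : ‖x - y‖ ≤ M * ‖(e : E →L[ℝ] F) (x - y)‖ := by
      conv_lhs => rw [h2]
      exact hMe _
    have h4 : ‖(e : E →L[ℝ] F) (x - y)‖ ≤ ‖f z x - f z y‖ + c * ‖x - y‖ := by
      have : (e : E →L[ℝ] F) (x - y) = (f z x - f z y) - (f z x - f z y - (e : E →L[ℝ] F) (x - y)) := by
        abel
      rw [this]
      exact (norm_sub_le _ _).trans (by gcongr; exact h1)
    have h5 : M * (c * ‖x - y‖) = ‖x - y‖ / 2 := by
      rw [hc]
      field_simp
    nlinarith [mul_le_mul_of_nonneg_left h4 hM0.le]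
  have hinj : ∀ z ∈ N, InjOn (f z) (closedBall u₀ r) := by
    intro z hz x hx y hy hxy
    have h1 := hanti z hz x hx y hy
    rw [hxy, sub_self, norm_zero, mul_zero] at h1
    exact sub_eq_zero.1 (norm_le_zero_iff.1 h1)
  have hsub : closedBall u₀ (r / 2) ⊆ closedBall u₀ r := closedBall_subset_closedBall (by linarith)
  have hsurj : ∀ z ∈ N, SurjOn (f z) (closedBall u₀ (r / 2))
      (closedBall (f z u₀) (c * (r / 2))) := by
    intro z hz
    have h1 := ((happ z hz).mono_set hsub).surjOn_closedBall_of_nonlinearRightInverse ρ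
      (b := u₀) (ε := r / 2) (by linarith) (Subset.refl _)
    have h2 : M⁻¹ - c = c := by
      rw [hc]
      ring
    change SurjOn (f z) (closedBall u₀ (r / 2)) (closedBall (f z u₀) ((M⁻¹ - c) * (r / 2))) at h1
    rwa [h2] at h1
  -- the inverse
  set g : Z → F → E := fun z v => Function.invFunOn (f z) (closedBall u₀ r) v with hg
  have hgl : ∀ z ∈ N, ∀ u ∈ closedBall u₀ r, g z (f z u) = u := fun z hz u hu =>
    (hinj z hz).leftInvOn_invFunOn hu
  have hgr : ∀ z ∈ N, ∀ v ∈ closedBall (f z u₀) (c * (r / 2)),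
      g z v ∈ closedBall u₀ (r / 2) ∧ f z (g z v) = v := by
    intro z hz v hv
    obtain ⟨u, hu, rfl⟩ := hsurj z hz hv
    rw [hgl z hz u (hsub hu)]
    exact ⟨hu, rfl⟩
  have hfc : ContinuousOn (fun z => f z u₀) N := by
    exact hf.continuousOn.comp (f := fun z : Z => ((z, u₀) : Z × E)) (by fun_prop)
      fun z hz => (hin z hz u₀ (mem_closedBall_self hr0.le)).1
  set T : Set (Z × F) := {p | p.1 ∈ N} ∩
    (fun p : Z × F => ‖p.2 - f p.1 u₀‖) ⁻¹' Iio (c * (r / 2)) with hT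
  have hTo : IsOpen T := by
    have h1 : ContinuousOn (fun p : Z × F => ‖p.2 - f p.1 u₀‖) {p | p.1 ∈ N} :=
      ((continuous_snd.continuousOn).sub
        (hfc.comp continuous_fst.continuousOn fun p hp => hp)).norm
    exact h1.isOpen_inter_preimage (hNo.preimage continuous_fst) isOpen_Iio
  have hTm : ∀ p ∈ T, p.2 ∈ closedBall (f p.1 u₀) (c * (r / 2)) := fun p hp =>
    mem_closedBall_iff_norm.2 (le_of_lt hp.2)
  have hgS : ∀ p ∈ T, (p.1, g p.1 p.2) ∈ S := fun p hp =>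
    (hin p.1 hp.1 _ (hsub (hgr p.1 hp.1 p.2 (hTm p hp)).1)).1
  have hfg : ∀ p ∈ T, f p.1 (g p.1 p.2) = p.2 := fun p hp => (hgr p.1 hp.1 p.2 (hTm p hp)).2
  have hgi : ∀ p ∈ T, (_root_.fderiv ℝ (f p.1) (g p.1 p.2)).IsInvertible := fun p hp =>
    (hin p.1 hp.1 _ (hsub (hgr p.1 hp.1 p.2 (hTm p hp)).1)).2.2
  have hgc : ContinuousOn (fun p : Z × F => g p.1 p.2) T := by
    intro p hp
    apply ContinuousAt.continuousWithinAt
    rw [ContinuousAt, tendsto_iff_norm_sub_tendsto_zero]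
    have hp1 := hgr p.1 hp.1 p.2 (hTm p hp)
    set u₁ := g p.1 p.2 with hu₁
    have h1 : ContinuousAt (fun q : Z × F => q.2 - f q.1 u₁) p := by
      have h2 : ContinuousAt (fun q : Z × E => f q.1 q.2) (p.1, u₁) :=
        hf.continuousOn.continuousAt (hf.isOpen.mem_nhds (hgS p hp))
      have h3 : ContinuousAt (fun q : Z × F => ((q.1, u₁) : Z × E)) p := by fun_prop
      exact continuousAt_snd.sub (ContinuousAt.comp (f := fun q : Z × F => ((q.1, u₁) : Z × E))
        (g := fun q : Z × E => f q.1 q.2) h2 h3)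
    have h4 : Tendsto (fun q : Z × F => 2 * M * ‖q.2 - f q.1 u₁‖) (𝓝 p) (𝓝 0) := by
      have h5 := (h1.norm.tendsto).const_mul (2 * M)
      rw [hp1.2, sub_self, norm_zero, mul_zero] at h5
      exact h5
    refine squeeze_zero' (Eventually.of_forall fun _ => norm_nonneg _) ?_ h4
    filter_upwards [hTo.mem_nhds hp] with q hq
    have h6 := hgr q.1 hq.1 q.2 (hTm q hq)
    have h7 := hanti q.1 hq.1 _ (hsub h6.1) u₁ (hsub hp1.1)
    rwa [h6.2] at h7
  refine ⟨T, g, hf.of_inverse hTo hgc hgS hfg hgi, ⟨hzN, ?_⟩, hgl z₀ hzN u₀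
    (mem_closedBall_self hr0.le), fun p hp => ⟨hgS p hp, hfg p hp, hgi p hp⟩, ?_⟩
  · change ‖f z₀ u₀ - f z₀ u₀‖ < c * (r / 2)
    rw [sub_self, norm_zero]
    positivity
  · have e1 : ∀ᶠ p : Z × E in 𝓝 (z₀, u₀), p.1 ∈ N :=
      continuous_fst.continuousAt (hNo.mem_nhds hzN)
    have e2 : ∀ᶠ p : Z × E in 𝓝 (z₀, u₀), p.2 ∈ closedBall u₀ r :=
      continuous_snd.continuousAt (closedBall_mem_nhds u₀ hr0)
    have e3 : ∀ᶠ p : Z × E in 𝓝 (z₀, u₀), ‖f p.1 p.2 - f p.1 u₀‖ < c * (r / 2) := by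
      have h2 : ContinuousAt (fun q : Z × E => f q.1 q.2) (z₀, u₀) :=
        hf.continuousOn.continuousAt (hf.isOpen.mem_nhds h0)
      have h3 : ContinuousAt (fun q : Z × E => f q.1 u₀) (z₀, u₀) :=
        ContinuousAt.comp (f := fun q : Z × E => ((q.1, u₀) : Z × E))
          (g := fun q : Z × E => f q.1 q.2) h2 (by fun_prop)
      have h4 : ContinuousAt (fun q : Z × E => ‖f q.1 q.2 - f q.1 u₀‖) (z₀, u₀) :=
        (h2.sub h3).norm
      have h5 : ‖f z₀ u₀ - f z₀ u₀‖ < c * (r / 2) := by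
        rw [sub_self, norm_zero]
        positivity
      exact h4.eventually (gt_mem_nhds h5)
    filter_upwards [e1, e2, e3] with p h1 h2 h3
    exact ⟨⟨h1, h3⟩, hgl p.1 h1 p.2 h2⟩

namespace H459

theorem isInvertible_of_bijective {E F : Type} [NormedAddCommGroup E] [NormedSpace ℝ E]
    [FiniteDimensional ℝ E] [NormedAddCommGroup F] [NormedSpace ℝ F] {A : E →L[ℝ] F}
    (h : Function.Bijective A) : A.IsInvertible := by
  let e : E ≃ₗ[ℝ] F := LinearEquiv.ofBijective A.toLinearMap h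
  have : FiniteDimensional ℝ F := e.finiteDimensional
  exact ⟨e.toContinuousLinearEquiv, by ext x; rfl⟩

/-- the inverse function theorem with a parameter -/
theorem invThm : InvThm := by
  intro Z _ E F _ _ _ _ _ f S z₀ u₀ hf h0 hb
  have : CompleteSpace E := FiniteDimensional.complete ℝ E
  obtain ⟨T, g, h1, h2, h3, h4, h5⟩ := hf.exists_inverse h0 (isInvertible_of_bijective hb)
  exact ⟨T, g, h1, h2, h3, fun p hp => ⟨(h4 p hp).1, (h4 p hp).2.1⟩, h5⟩

end H459

end Vale.Agent.P207.N3
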