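import Vale.Agent.P207.N3.H76.SliceC0

/-!
# P207, line N3: a geodesic which stays close to the axis of `x` in the past comes from `em x`
-/

open Set Filter Topology Metric Real
open Vale.Agent.P207.N3.H728 Vale.Agent.P207.N3.H709 Vale.Agent.P207.N3.H76

noncomputable section

namespace Vale.Agent.P207.N3.H459

variable {Γ X Y : Type} [Group Γ] [MetricSpace X] [ProperSpace X] [MetricSpace Y]
  [ProperSpace Y] [MulAction Γ X] [MulAction Γ Y] [IsIsometricSMul Γ X] [IsIsometricSMul Γ Y]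
  (G : Geo Γ X Y) (o : Y)

/-- If the ray `r ↦ E y (r • ζ)`, `r ≤ 0`, is described by points `E (φ t x) (u t)`, `t ≤ 0`, with
bounded `u`, then it is the ray which comes from `em x`. -/
theorem psi_of_graph {x y : X} {ζ : E3} (hζ : ‖ζ‖ = 1) {u : ℝ → E3} {δ : ℝ} {θ : ℝ → ℝ}
    (h0 : θ 0 = 0) (hc : ContinuousOn θ (Iic 0)) (hneg : ∀ t ≤ 0, θ t ≤ 0)
    (hu : ∀ t ≤ 0, ‖u t‖ ≤ δ) (h : ∀ t ≤ 0, G.E (G.φ t x) (u t) = G.E y (θ t • ζ)) (s : ℝ) :
    G.had.psi (G.em o x) s (G.ft y) = G.E y (s • ζ) := by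
  obtain ⟨A, hA⟩ := exists_rot_e0 hζ
  set c : Ln Y := G.p (G.act A y) with hcdef
  have hct : ∀ t, c t = G.E y (t • ζ) := fun t => by
    rw [hcdef, G.p_apply, G.E_act, map_smul, hA]
  have hft : G.ft y = c 0 := by rw [hct, zero_smul, G.E_zero]
  have hx : ∀ t ≤ 0, dist (c (θ t)) (G.p x t) ≤ δ := fun t ht => by
    rw [hct, ← h t ht, dist_comm, G.p_apply, ← G.ft_φ, G.E_dist]
    exact hu t ht
  have h00 : dist (c 0) (G.p x 0) ≤ δ := by
    have := hx 0 le_rfl
    rwa [h0] at this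
  -- comparison of the parameters
  have hpar : ∀ t ≤ 0, |t - θ t| ≤ 2 * δ := fun t ht => by
    have e1 : dist (c 0) (c (θ t)) = -θ t := by
      rw [Ln.dist_eq, zero_sub, abs_neg, abs_of_nonpos (hneg t ht)]
    have e2 : dist (G.p x 0) (G.p x t) = -t := by
      rw [Ln.dist_eq, zero_sub, abs_neg, abs_of_nonpos ht]
    have e3 := hx t ht
    have t1 : dist (c 0) (c (θ t)) ≤ dist (c 0) (G.p x 0) + dist (G.p x 0) (G.p x t) +
        dist (G.p x t) (c (θ t)) := dist_triangle4 _ _ _ _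
    have t2 : dist (G.p x 0) (G.p x t) ≤ dist (G.p x 0) (c 0) + dist (c 0) (c (θ t)) +
        dist (c (θ t)) (G.p x t) := dist_triangle4 _ _ _ _
    rw [dist_comm (G.p x t)] at t1
    rw [dist_comm (G.p x 0) (c 0)] at t2
    rw [abs_le]
    constructor <;> linarith
  have hδ : 0 ≤ δ := (norm_nonneg _).trans (hu 0 le_rfl)
  have hasy : Asy c.flip (G.p x).flip := by
    refine ⟨3 * δ, fun t ht => ?_⟩
    rw [Ln.flip_apply, Ln.flip_apply]
    have hr : -(t + 2 * δ) ≤ 0 := by linarith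
    have h1 := hpar _ hr
    rw [abs_le] at h1
    have h2 : θ (-(t + 2 * δ)) ≤ -t := by linarith [h1.1, h1.2]
    have h3 := intermediate_value_Icc hr (hc.mono fun r hr' => hr'.2)
    obtain ⟨r, hr1, hr2⟩ := h3 (show -t ∈ Icc (θ (-(t + 2 * δ))) (θ 0) from ⟨h2, by rw [h0]; linarith⟩)
    have h4 := hx r hr1.2
    have h5 := hpar r hr1.2
    rw [hr2] at h4 h5
    have h6 : dist (G.p x r) (G.p x (-t)) ≤ 2 * δ := by
      rw [Ln.dist_eq]
      exact h5
    linarith [dist_triangle (c (-t)) (G.p x r) (G.p x (-t))]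
  have hem : G.had.em o c = G.em o x := (G.had.em_eq_iff o).2 hasy
  rw [← hem, hft, G.had.psi_em, add_zero, hct]

end Vale.Agent.P207.N3.H459
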