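import Vale.Agent.P207.N3.H76.Asm1
import Vale.Agent.P207.N3.H459.GeoAsy

/-!
# P207, line N3: the smooth input `Sm3` of the charts

`SmIn`: the geodesic from `em x` through the point `E x (0, u)` of the disc is
`s ↦ E (y x u) (s • ζ x u)`, with the frame `y x u` transported along the radius.
-/

set_option linter.unusedSectionVars false

open Set Filter Topology Metric Real
open scoped ContDiff
open Vale.Agent.P207.N3.H728 Vale.Agent.P207.N3.H709 Vale.Agent.P207.N3.H76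

noncomputable section

namespace Vale.Agent.P207.N3.H459

variable {Γ X Y : Type} [Group Γ] [MetricSpace X] [ProperSpace X] [MetricSpace Y]
  [ProperSpace Y] [MulAction Γ X] [MulAction Γ Y] [IsIsometricSMul Γ X] [IsIsometricSMul Γ Y]

/-- the smooth geometry -/
structure SmIn (G : Geo Γ X Y) {V : Type} [NormedAddCommGroup V] [NormedSpace ℝ V]
    (j : Y ≃ₜ V) where
  ε : ℝ
  ε_pos : 0 < ε
  /-- the frame transported along the radius -/
  y : X → E2 → X
  ft_y : ∀ x u, G.ft (y x u) = G.E x (pk 0 u)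
  y_zero : ∀ x, y x 0 = x
  H_jc : JC (fun x (p : E2 × E3) => j (G.E (y x p.1) p.2)) univ
  /-- the initial direction, in the frame `y x u`, of the geodesic from `em x` -/
  ζ : X → E2 → E3
  ζ_jc : JC ζ (univ ×ˢ ball 0 ε)
  ζ_norm : ∀ x, ∀ u ∈ ball (0 : E2) ε, ‖ζ x u‖ = 1
  ζ_zero : ∀ x, ζ x 0 = e0
  graph : ∀ x, ∀ u ∈ ball (0 : E2) ε, ∃ (v : ℝ → E3) (θ : ℝ → ℝ) (δ : ℝ), θ 0 = 0 ∧
    ContinuousOn θ (Iic 0) ∧ (∀ t ≤ 0, θ t ≤ 0) ∧ (∀ t ≤ 0, ‖v t‖ ≤ δ) ∧
    ∀ t ≤ 0, G.E (G.φ t x) (v t) = G.E (y x u) (θ t • ζ x u)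
  E_der : ∀ x, Function.Bijective (fderiv ℝ (fun w => j (G.E x w)) 0)
  diff_smul : ∀ g : Γ, Differentiable ℝ fun p => j (g • j.symm p)

namespace SmIn

variable {G : Geo Γ X Y} {V : Type} [NormedAddCommGroup V] [NormedSpace ℝ V]
  {j : Y ≃ₜ V} (I : SmIn G j) (o : Y)

/-- the family of geodesics in the frames `y x u` -/
def H (x : X) (p : E2 × E3) : V := j (G.E (I.y x p.1) p.2)

theorem psi_eq (x : X) {u : E2} (hu : u ∈ ball (0 : E2) I.ε) (s : ℝ) :
    G.had.psi (G.em o x) s (G.E x (pk 0 u)) = G.E (I.y x u) (s • I.ζ x u) := by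
  obtain ⟨v, θ, δ, h0, hc, hneg, hv, h⟩ := I.graph x u hu
  rw [← I.ft_y]
  exact psi_of_graph G o (I.ζ_norm x u hu) h0 hc hneg hv h s

theorem A_eq (x : X) {u : E2} (hu : u ∈ ball (0 : E2) I.ε) (s : ℝ) :
    G.A o j x (s, u) = I.H x (u, s • I.ζ x u) := by
  rw [Geo.A, H]
  exact congrArg j (I.psi_eq o x hu s)

theorem isOpen_dom' : IsOpen (univ ×ˢ (univ ×ˢ ball 0 I.ε) : Set (X × (ℝ × E2))) :=
  isOpen_univ.prod (isOpen_univ.prod isOpen_ball)

theorem inner_jc : JC (fun x (z : ℝ × E2) => (z.2, z.1 • I.ζ x z.2))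
    (univ ×ˢ (univ ×ˢ ball 0 I.ε)) := by
  have h1 : JC (fun (_ : X) (z : ℝ × E2) => z.2) (univ ×ˢ (univ ×ˢ ball 0 I.ε)) :=
    (JC.id I.isOpen_dom').snd
  have h2 : JC (fun (_ : X) (z : ℝ × E2) => z.1) (univ ×ˢ (univ ×ˢ ball 0 I.ε)) :=
    (JC.id I.isOpen_dom').fst
  exact h1.prodMk (h2.smul (I.ζ_jc.comp' h1 fun p hp => ⟨mem_univ _, hp.2.2⟩))

theorem A_jc : JC (G.A o j) (univ ×ˢ (univ ×ˢ ball 0 I.ε)) := by
  have h := I.H_jc.comp' I.inner_jc fun p _ => mem_univ _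
  refine h.congr fun p hp => ?_
  exact I.A_eq o p.1 hp.2.2 p.2.1

theorem zero_mem : (0 : E2) ∈ ball (0 : E2) I.ε := mem_ball_self I.ε_pos

include I in
/-- the derivative of the tube at the foot point -/
theorem fderiv_A (x : X) (s : ℝ) (a : E2) : fderiv ℝ (G.A o j x) 0 (s, a) =
    fderiv ℝ (fun w => j (G.E x w)) 0 (pk s a) := by
  set Ex : E3 → V := fun w => j (G.E x w) with hEx
  have hH : HasFDerivAt (I.H x) (fderiv ℝ (I.H x) (0, 0)) ((0, 0) : E2 × E3) :=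
    (I.H_jc.differentiableAt (mem_univ (x, ((0, 0) : E2 × E3)))).hasFDerivAt
  -- the derivative in the second variable
  have hE : HasFDerivAt Ex ((fderiv ℝ (I.H x) (0, 0)).comp (ContinuousLinearMap.inr ℝ E2 E3))
      (0 : E3) := by
    have h1 : HasFDerivAt (fun w : E3 => ((0, w) : E2 × E3)) (ContinuousLinearMap.inr ℝ E2 E3) 0 :=
      hasFDerivAt_prodMk_right 0 0
    have h2 := hH.comp (0 : E3) h1
    refine h2.congr_of_eventuallyEq (Eventually.of_forall fun w => ?_)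
    simp only [hEx, H, Function.comp_apply, I.y_zero]
  -- the derivative in the first variable
  have hP : HasFDerivAt (fun u : E2 => Ex (pk 0 u))
      ((fderiv ℝ (I.H x) (0, 0)).comp (ContinuousLinearMap.inl ℝ E2 E3)) (0 : E2) := by
    have h1 : HasFDerivAt (fun u : E2 => ((u, 0) : E2 × E3)) (ContinuousLinearMap.inl ℝ E2 E3) 0 :=
      hasFDerivAt_prodMk_left 0 0
    have h2 := hH.comp (0 : E2) h1
    refine h2.congr_of_eventuallyEq (Eventually.of_forall fun u => ?_)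
    simp only [hEx, H, Function.comp_apply]
    rw [G.E_zero, I.ft_y]
  have hP' : HasFDerivAt (fun u : E2 => Ex (pk 0 u))
      ((fderiv ℝ Ex 0).comp ((LinearMap.toContinuousLinearMap pkL).comp
        (ContinuousLinearMap.inr ℝ ℝ E2))) (0 : E2) := by
    have h1 : HasFDerivAt (fun u : E2 => pk 0 u) ((LinearMap.toContinuousLinearMap pkL).comp
        (ContinuousLinearMap.inr ℝ ℝ E2)) (0 : E2) :=
      ((LinearMap.toContinuousLinearMap pkL).comp (ContinuousLinearMap.inr ℝ ℝ E2)).hasFDerivAt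
    have h2 : HasFDerivAt Ex (fderiv ℝ Ex 0) (pk 0 0) := by
      rw [Geo.pk_zero_zero]
      exact hE.differentiableAt.hasFDerivAt
    exact h2.comp (0 : E2) h1
  have e1 : ∀ a : E2, fderiv ℝ (I.H x) (0, 0) (a, 0) = fderiv ℝ Ex 0 (pk 0 a) := fun a =>
    congrArg (fun T : E2 →L[ℝ] V => T a) (hP.unique hP')
  have e2 : ∀ w : E3, fderiv ℝ (I.H x) (0, 0) (0, w) = fderiv ℝ Ex 0 w := fun w => by
    rw [hE.fderiv]
    rfl
  -- the inner map
  have hin : HasFDerivAt (fun z : ℝ × E2 => (z.2, z.1 • I.ζ x z.2))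
      ((ContinuousLinearMap.snd ℝ ℝ E2).prod
        ((ContinuousLinearMap.fst ℝ ℝ E2).smulRight e0)) (0 : ℝ × E2) := by
    have h1 : HasFDerivAt (fun z : ℝ × E2 => z.2) (ContinuousLinearMap.snd ℝ ℝ E2) 0 :=
      hasFDerivAt_snd
    have h2 : HasFDerivAt (fun z : ℝ × E2 => z.1) (ContinuousLinearMap.fst ℝ ℝ E2) 0 :=
      hasFDerivAt_fst
    have h3 : HasFDerivAt (fun z : ℝ × E2 => I.ζ x z.2)
        ((fderiv ℝ (I.ζ x) 0).comp (ContinuousLinearMap.snd ℝ ℝ E2)) 0 := by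
      have h4 : HasFDerivAt (I.ζ x) (fderiv ℝ (I.ζ x) 0) (0 : ℝ × E2).2 :=
        (I.ζ_jc.differentiableAt (p := (x, 0)) ⟨mem_univ _, I.zero_mem⟩).hasFDerivAt
      exact h4.comp (0 : ℝ × E2) h1
    refine h1.prodMk ((h2.smul h3).congr_fderiv ?_)
    ext z
    · simp [I.ζ_zero]
    · simp
  have hA : HasFDerivAt (G.A o j x) ((fderiv ℝ (I.H x) (0, 0)).comp
      ((ContinuousLinearMap.snd ℝ ℝ E2).prod
        ((ContinuousLinearMap.fst ℝ ℝ E2).smulRight e0))) (0 : ℝ × E2) := by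
    have h1 : HasFDerivAt (I.H x) (fderiv ℝ (I.H x) (0, 0))
        ((0 : ℝ × E2).2, (0 : ℝ × E2).1 • I.ζ x (0 : ℝ × E2).2) := by
      simpa using hH
    have h2 := h1.comp (0 : ℝ × E2) hin
    refine h2.congr_of_eventuallyEq ?_
    have h3 : ∀ᶠ z : ℝ × E2 in 𝓝 0, z.2 ∈ ball (0 : E2) I.ε :=
      continuous_snd.continuousAt.eventually (isOpen_ball.mem_nhds I.zero_mem)
    filter_upwards [h3] with z hz
    exact I.A_eq o x hz z.1
  rw [hA.fderiv]
  have e3 : (pk s a : E3) = pk 0 a + s • e0 := by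
    ext i
    fin_cases i <;> simp [pk, e0]
  change fderiv ℝ (I.H x) (0, 0) (a, s • e0) = _
  have e4 : ((a, s • e0) : E2 × E3) = (a, 0) + (0, s • e0) := by simp
  rw [e4, map_add, e1, e2, e3, map_add]

include I in
theorem A_der (x : X) : Function.Bijective (fderiv ℝ (G.A o j x) 0) := by
  have h : (fderiv ℝ (G.A o j x) 0 : ℝ × E2 → V) =
      (fderiv ℝ (fun w => j (G.E x w)) 0) ∘ fun z : ℝ × E2 => pk z.1 z.2 := by
    funext z
    exact I.fderiv_A o x z.1 z.2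
  rw [h]
  refine (I.E_der x).comp ⟨fun z w hzw => ?_, fun w => ⟨(w 0, tl w), pk_tl w⟩⟩
  have := pk_inj.1 hzw
  exact Prod.ext this.1 this.2

/-- **the smooth input of the charts** -/
def sm3 : G.Sm3 o j where
  ε := I.ε
  ε_pos := I.ε_pos
  A_jc := I.A_jc o
  A_der := I.A_der o
  diff_smul := I.diff_smul

end SmIn

end Vale.Agent.P207.N3.H459
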